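import Mathlib

/-!
P243 Counter: the lower integral of a nonnegative affine function over an interval.
-/

open MeasureTheory Measure Set
open scoped ENNReal

namespace Vale.Agent.Lib.P243.Counter

lemma lintegral_affine (a b c d : ℝ) (hab : a ≤ b) (hpos : ∀ y ∈ Icc a b, 0 ≤ c + d * y) :
    ∫⁻ y in Icc a b, ENNReal.ofReal (c + d * y)
      = ENNReal.ofReal (c * (b - a) + d * (b ^ 2 - a ^ 2) / 2) := by
  have hcont : Continuous (fun y : ℝ => c + d * y) := by fun_prop
  have hint : IntegrableOn (fun y : ℝ => c + d * y) (Icc a b) volume :=
    hcont.continuousOn.integrableOn_Icc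
  rw [← ofReal_integral_eq_lintegral_ofReal hint]
  · congr 1
    rw [integral_Icc_eq_integral_Ioc, ← intervalIntegral.integral_of_le hab]
    have h2 : Continuous (fun y : ℝ => d * y) := by fun_prop
    rw [intervalIntegral.integral_add (by simp) (h2.intervalIntegrable a b)]
    rw [intervalIntegral.integral_const, intervalIntegral.integral_const_mul, integral_id]
    simp only [smul_eq_mul]
    ring
  · rw [Filter.EventuallyLE, ae_restrict_iff' measurableSet_Icc]
    exact Filter.Eventually.of_forall (fun y hy => hpos y hy)

end Vale.Agent.Lib.P243.Counter
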