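import Mathlib
import Vale.Agent.Lib.P243.Defs

/-!
# P243: a covering of a tetrahedron by four cylinders with directionwise relative area 89/185

Model data (all frozen).  Coordinates of `E3` are written `(x, v, w) = (p 0, p 1, p 2)`.
-/

open scoped RealInnerProductSpace

namespace Vale.Agent.Lib.P243.Counter

open Vale.Agent.Lib.P243

/-- The tetrahedron with vertices `(1, 2, 0), (1, -2, 0), (-1, 0, 2), (-1, 0, -2)`. -/
def Tet : Set E3 := {p | |p 1| ≤ 1 + p 0 ∧ |p 2| ≤ 1 - p 0}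

/-- The planar quadrilateral with vertices `(-3/37, 0), (1, 0), (-2/15, 17/15), (-1/74, 1/2)`
(reflex at the last one); its area is `623/1110`. -/
def Q : Set (ℝ × ℝ) :=
  {z | 0 ≤ z.2 ∧ z.1 + z.2 ≤ 1 ∧ -(6 / 37) * |z.2 - 1 / 2| - z.2 / 37 ≤ z.1}

/-- The planar triangle with vertices `(-1, -2), (4/3, -1/3), (-1, 2)`; its area is `14/3`. -/
def Tri : Set (ℝ × ℝ) := {z | -1 ≤ z.1 ∧ z.1 + z.2 ≤ 1 ∧ 5 * z.1 - 7 * z.2 ≤ 9}

/-- The linear map `x ↦ (⟪a, x⟫, ⟪c, x⟫)`. -/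
noncomputable def P (a c : E3) : E3 →L[ℝ] ℝ × ℝ := (innerSL ℝ a).prod (innerSL ℝ c)

@[simp] lemma P_apply (a c x : E3) : P a c x = (⟪a, x⟫, ⟪c, x⟫) := rfl

/-- Axis vectors of the four cylinders (not normalised). -/
noncomputable def ax : Fin 4 → E3 :=
  ![!₂[-1, 6, 1], !₂[1, 6, 1], !₂[-1, -1, 6], !₂[1, -1, 6]]

/-- First coordinate functionals of the four oblique projections. -/
noncomputable def ca : Fin 4 → E3 :=
  ![!₂[1, 1 / 6, 0], !₂[1, -1 / 6, 0], !₂[-1, 0, -1 / 6], !₂[-1, 0, 1 / 6]]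

/-- Second coordinate functionals of the four oblique projections. -/
noncomputable def cc : Fin 4 → E3 :=
  ![!₂[0, -1 / 6, 1], !₂[0, 1 / 6, -1], !₂[0, 1, 1 / 6], !₂[0, -1, -1 / 6]]

/-- Unit axis vectors. -/
noncomputable def uax (i : Fin 4) : E3 := ‖ax i‖⁻¹ • ax i

/-- The base in the plane orthogonal to `w` cut out by the planar set `S` through the oblique
coordinates `P a c`. -/
def baseOf (a c w : E3) (S : Set (ℝ × ℝ)) : Set E3 := {y | y ∈ plane w ∧ P a c y ∈ S}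

/-- The four bases. -/
noncomputable def Bs (i : Fin 4) : Set E3 := baseOf (ca i) (cc i) (uax i) Q

end Vale.Agent.Lib.P243.Counter
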