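import Mathlib
import Vale.Agent.Lib.P243.Counter.Model

/-!
# Module AQ: the quadrilateral `Q` is compact and has area `623/1110`

ROUTE.  `Q` is closed (continuous inequalities) and bounded (`0 ≤ z.2 ≤ 17/15`, `-1 ≤ z.1 ≤ 1`).
Area: `Q = {z | z.2 ∈ Icc 0 (17/15) ∧ z.1 ∈ Icc (g z.2) (1 - z.2)}` with
`g q = -(6/37)|q - 1/2| - q/37`; use `Measure.prod_apply_symm` (or swap + `prod_apply`), sections
are `Icc`, `Real.volume_Icc`, then
`∫ q in 0..17/15, (1 - q - g q) = ∫ 0..1/2 (40/37 - (42/37) q) + ∫ 1/2..17/15 (34/37 - (30/37) q)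
 = 59/148 + 289/1780... ` (total `623/1110`).  Only `≤` is needed.
-/

open MeasureTheory Measure Set
open scoped ENNReal

namespace Vale.Agent.Lib.P243.Counter

/-- Area of a region bounded by two graphs over the second coordinate. -/
theorem volume_strip (a b : ℝ) (hab : a ≤ b) (lo hi : ℝ → ℝ) (hlo : Continuous lo)
    (hhi : Continuous hi) (hle : ∀ q ∈ Icc a b, lo q ≤ hi q) :
    volume {z : ℝ × ℝ | z.2 ∈ Icc a b ∧ lo z.2 ≤ z.1 ∧ z.1 ≤ hi z.2}
      = ENNReal.ofReal (∫ q in a..b, (hi q - lo q)) := by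
  have hcl : IsClosed {z : ℝ × ℝ | z.2 ∈ Icc a b ∧ lo z.2 ≤ z.1 ∧ z.1 ≤ hi z.2} := by
    have h1 : IsClosed {z : ℝ × ℝ | z.2 ∈ Icc a b} := isClosed_Icc.preimage continuous_snd
    have h2 : IsClosed {z : ℝ × ℝ | lo z.2 ≤ z.1} :=
      isClosed_le (hlo.comp continuous_snd) continuous_fst
    have h3 : IsClosed {z : ℝ × ℝ | z.1 ≤ hi z.2} :=
      isClosed_le continuous_fst (hhi.comp continuous_snd)
    exact h1.inter (h2.inter h3)
  rw [Measure.volume_eq_prod, Measure.prod_apply_symm hcl.measurableSet]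
  have hsec : ∀ q : ℝ, volume ((fun x : ℝ => (x, q)) ⁻¹'
      {z : ℝ × ℝ | z.2 ∈ Icc a b ∧ lo z.2 ≤ z.1 ∧ z.1 ≤ hi z.2})
      = (Icc a b).indicator (fun q => ENNReal.ofReal (hi q - lo q)) q := by
    intro q
    by_cases hq : q ∈ Icc a b
    · rw [indicator_of_mem hq, ← Real.volume_Icc]
      congr 1
      ext x
      simp only [mem_preimage, mem_ofPred_eq, mem_Icc]
      exact ⟨fun h => h.2, fun h => ⟨hq, h⟩⟩
    · rw [indicator_of_notMem hq]
      have : (fun x : ℝ => (x, q)) ⁻¹'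
          {z : ℝ × ℝ | z.2 ∈ Icc a b ∧ lo z.2 ≤ z.1 ∧ z.1 ≤ hi z.2} = ∅ := by
        ext x
        simp only [mem_preimage, mem_ofPred_eq, mem_empty_iff_false, iff_false]
        exact fun h => hq h.1
      rw [this, measure_empty]
  simp_rw [hsec]
  rw [lintegral_indicator measurableSet_Icc, intervalIntegral.integral_of_le hab,
    ← integral_Icc_eq_integral_Ioc, ofReal_integral_eq_lintegral_ofReal]
  · exact (Continuous.integrableOn_Icc (by fun_prop))
  · rw [Filter.EventuallyLE, ae_restrict_iff' measurableSet_Icc]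
    exact Filter.Eventually.of_forall fun q hq => sub_nonneg.2 (hle q hq)

theorem Q_bounds {z : ℝ × ℝ} (hz : z ∈ Q) : z.2 ≤ 17 / 15 ∧ -1 ≤ z.1 ∧ z.1 ≤ 1 := by
  obtain ⟨h0, h1, h2⟩ := hz
  rcases abs_cases (z.2 - 1 / 2) with ⟨h, _⟩ | ⟨h, _⟩ <;> rw [h] at h2 <;>
    refine ⟨?_, ?_, ?_⟩ <;> linarith

theorem isCompact_Q : IsCompact Q := by
  have hcl : IsClosed Q := by
    have h1 : IsClosed {z : ℝ × ℝ | 0 ≤ z.2} := isClosed_le continuous_const continuous_snd
    have h2 : IsClosed {z : ℝ × ℝ | z.1 + z.2 ≤ 1} :=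
      isClosed_le (continuous_fst.add continuous_snd) continuous_const
    have h3 : IsClosed {z : ℝ × ℝ | -(6 / 37) * |z.2 - 1 / 2| - z.2 / 37 ≤ z.1} :=
      isClosed_le (by fun_prop) continuous_fst
    exact h1.inter (h2.inter h3)
  refine (isCompact_Icc (a := ((-1 : ℝ), (0 : ℝ))) (b := ((1 : ℝ), (17 / 15 : ℝ)))).of_isClosed_subset
    hcl ?_
  intro z hz
  obtain ⟨h1, h2, h3⟩ := Q_bounds hz
  exact ⟨⟨h2, hz.1⟩, ⟨h3, h1⟩⟩

theorem volume_Q_le : volume Q ≤ ENNReal.ofReal (623 / 1110) := by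
  have hsub : Q ⊆ {z : ℝ × ℝ | z.2 ∈ Icc (0 : ℝ) (1 / 2) ∧
        (fun q : ℝ => -(3 / 37) + (5 / 37) * q) z.2 ≤ z.1 ∧ z.1 ≤ (fun q : ℝ => 1 - q) z.2} ∪
      {z : ℝ × ℝ | z.2 ∈ Icc (1 / 2 : ℝ) (17 / 15) ∧
        (fun q : ℝ => 3 / 37 - (7 / 37) * q) z.2 ≤ z.1 ∧ z.1 ≤ (fun q : ℝ => 1 - q) z.2} := by
    intro z hz
    have hb := Q_bounds hz
    obtain ⟨h0, h1, h2⟩ := hz
    rcases abs_cases (z.2 - 1 / 2) with ⟨h, h'⟩ | ⟨h, h'⟩ <;> rw [h] at h2
    · right
      refine ⟨⟨by linarith, hb.1⟩, ?_, ?_⟩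
      · show 3 / 37 - (7 / 37) * z.2 ≤ z.1
        linarith
      · show z.1 ≤ 1 - z.2
        linarith
    · left
      refine ⟨⟨h0, by linarith⟩, ?_, ?_⟩
      · show -(3 / 37) + (5 / 37) * z.2 ≤ z.1
        linarith
      · show z.1 ≤ 1 - z.2
        linarith
  refine (measure_mono hsub).trans ((measure_union_le _ _).trans ?_)
  rw [volume_strip 0 (1 / 2) (by norm_num) (fun q : ℝ => -(3 / 37) + (5 / 37) * q)
      (fun q : ℝ => 1 - q) (by fun_prop) (by fun_prop)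
      (fun q hq => by simp only [mem_Icc] at hq; linarith [hq.1, hq.2]),
    volume_strip (1 / 2) (17 / 15) (by norm_num) (fun q : ℝ => 3 / 37 - (7 / 37) * q)
      (fun q : ℝ => 1 - q) (by fun_prop) (by fun_prop)
      (fun q hq => by simp only [mem_Icc] at hq; linarith [hq.1, hq.2])]
  have e1 : ∫ q in (0 : ℝ)..(1 / 2), ((1 - q) - (-(3 / 37) + (5 / 37) * q)) = 59 / 148 := by
    have : ∀ q : ℝ, ((1 - q) - (-(3 / 37) + (5 / 37) * q)) = 40 / 37 - (42 / 37) * q := by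
      intro q; ring
    simp_rw [this]
    rw [intervalIntegral.integral_sub (Continuous.intervalIntegrable (by fun_prop) _ _)
      (Continuous.intervalIntegrable (by fun_prop) _ _),
      intervalIntegral.integral_const_mul, integral_id]
    simp
    norm_num
  have e2 : ∫ q in (1 / 2 : ℝ)..(17 / 15), ((1 - q) - (3 / 37 - (7 / 37) * q)) = 361 / 2220 := by
    have : ∀ q : ℝ, ((1 - q) - (3 / 37 - (7 / 37) * q)) = 34 / 37 - (30 / 37) * q := by
      intro q; ring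
    simp_rw [this]
    rw [intervalIntegral.integral_sub (Continuous.intervalIntegrable (by fun_prop) _ _)
      (Continuous.intervalIntegrable (by fun_prop) _ _),
      intervalIntegral.integral_const_mul, integral_id]
    simp
    norm_num
  rw [e1, e2, ← ENNReal.ofReal_add (by norm_num) (by norm_num)]
  apply ENNReal.ofReal_le_ofReal
  norm_num

end Vale.Agent.Lib.P243.Counter
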