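import Mathlib
import Vale.Agent.Lib.P243.Counter.Model

/-!
# Module AT: the triangle `Tri` has area at least `14/3`

ROUTE.  `regionBetween (fun p => (5 * p - 9) / 7) (fun p => 1 - p) (Ioc (-1) (4/3)) ⊆ Tri` and
`volume_regionBetween_eq_integral`; `∫ p in -1..4/3, (16 - 12 p)/7 = 14/3`.
-/

open MeasureTheory Measure Set
open scoped ENNReal

namespace Vale.Agent.Lib.P243.Counter

theorem le_volume_Tri : ENNReal.ofReal (14 / 3) ≤ volume Tri := by
  have hsub : regionBetween (fun p : ℝ => (5 * p - 9) / 7) (fun p : ℝ => 1 - p)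
      (Ioc (-1 : ℝ) (4 / 3)) ⊆ Tri := by
    rintro ⟨a, b⟩ ⟨h1, h2⟩
    simp only [mem_Ioc, mem_Ioo] at h1 h2
    refine ⟨by simpa using h1.1.le, ?_, ?_⟩
    · show a + b ≤ 1
      linarith [h2.2]
    · show 5 * a - 7 * b ≤ 9
      have := h2.1
      rw [div_lt_iff₀ (by norm_num)] at this
      linarith
  refine le_trans (le_of_eq ?_) (measure_mono hsub)
  have hf : IntegrableOn (fun p : ℝ => (5 * p - 9) / 7) (Ioc (-1 : ℝ) (4 / 3)) volume :=
    (Continuous.integrableOn_Icc (by fun_prop)).mono_set Ioc_subset_Icc_self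
  have hg : IntegrableOn (fun p : ℝ => 1 - p) (Ioc (-1 : ℝ) (4 / 3)) volume :=
    (Continuous.integrableOn_Icc (by fun_prop)).mono_set Ioc_subset_Icc_self
  rw [Measure.volume_eq_prod, volume_regionBetween_eq_integral hf hg measurableSet_Ioc]
  · congr 1
    rw [← intervalIntegral.integral_of_le (by norm_num)]
    have : ∀ p : ℝ, ((fun p : ℝ => 1 - p) - fun p : ℝ => (5 * p - 9) / 7) p
        = 16 / 7 - (12 / 7) * p := by
      intro p
      simp only [Pi.sub_apply]
      ring
    simp_rw [this]
    rw [intervalIntegral.integral_sub (Continuous.intervalIntegrable (by fun_prop) _ _)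
      (Continuous.intervalIntegrable (by fun_prop) _ _),
      intervalIntegral.integral_const_mul, integral_id]
    simp
    norm_num
  · intro p hp
    simp only [mem_Ioc] at hp
    rw [div_le_iff₀ (by norm_num)]
    linarith [hp.2]

end Vale.Agent.Lib.P243.Counter
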