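import Mathlib
import Vale.Agent.Lib.P243.Counter.Model

/-!
# Module B: `Tet` is a convex body

ROUTE.  Convex: intersection of four closed half-spaces (`abs_le`, linear arithmetic on
coordinates).  Compact: closed (continuity of coordinates) and bounded (`|p 0| ≤ 1`, `|p 1| ≤ 2`,
`|p 2| ≤ 2`, e.g. inside `Metric.closedBall 0 3` via `EuclideanSpace.norm_eq`).  Interior: the
open set `{p | |p 1| < 1 + p 0 ∧ |p 2| < 1 - p 0}` contains `0` and lies in `Tet`.
-/

namespace Vale.Agent.Lib.P243.Counter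

open Vale.Agent.Lib.P243

theorem isConvexBody_Tet : IsConvexBody Tet := by
  have hc : ∀ i : Fin 3, Continuous fun p : E3 => p i := fun i => by fun_prop
  refine ⟨?_, ?_, ?_⟩
  · intro p hp q hq a b ha hb hab
    obtain ⟨hp1, hp2⟩ := hp
    obtain ⟨hq1, hq2⟩ := hq
    rw [abs_le] at hp1 hp2 hq1 hq2
    have e : ∀ i : Fin 3, (a • p + b • q) i = a * p i + b * q i := fun i => by simp
    refine ⟨?_, ?_⟩
    · rw [e, e, abs_le]
      constructor <;> nlinarith [mul_le_mul_of_nonneg_left hp1.1 ha,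
        mul_le_mul_of_nonneg_left hp1.2 ha, mul_le_mul_of_nonneg_left hq1.1 hb,
        mul_le_mul_of_nonneg_left hq1.2 hb]
    · rw [e, e, abs_le]
      constructor <;> nlinarith [mul_le_mul_of_nonneg_left hp2.1 ha,
        mul_le_mul_of_nonneg_left hp2.2 ha, mul_le_mul_of_nonneg_left hq2.1 hb,
        mul_le_mul_of_nonneg_left hq2.2 hb]
  · have hclosed : IsClosed Tet := by
      have h1 : IsClosed {p : E3 | |p 1| ≤ 1 + p 0} :=
        isClosed_le ((hc 1).abs) (continuous_const.add (hc 0))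
      have h2 : IsClosed {p : E3 | |p 2| ≤ 1 - p 0} :=
        isClosed_le ((hc 2).abs) (continuous_const.sub (hc 0))
      exact h1.inter h2
    refine (isCompact_closedBall (0 : E3) 3).of_isClosed_subset hclosed ?_
    rintro p ⟨h1, h2⟩
    rw [abs_le] at h1 h2
    rw [mem_closedBall_zero_iff, EuclideanSpace.norm_eq, Real.sqrt_le_left (by norm_num)]
    simp only [Fin.sum_univ_three, Real.norm_eq_abs, sq_abs]
    nlinarith [h1.1, h1.2, h2.1, h2.2]
  · have hopen : IsOpen {p : E3 | |p 1| < 1 + p 0 ∧ |p 2| < 1 - p 0} := by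
      have h1 : IsOpen {p : E3 | |p 1| < 1 + p 0} :=
        isOpen_lt ((hc 1).abs) (continuous_const.add (hc 0))
      have h2 : IsOpen {p : E3 | |p 2| < 1 - p 0} :=
        isOpen_lt ((hc 2).abs) (continuous_const.sub (hc 0))
      exact h1.inter h2
    refine ⟨0, interior_maximal ?_ hopen ?_⟩
    · rintro p ⟨h1, h2⟩
      exact ⟨h1.le, h2.le⟩
    · constructor <;> simp

end Vale.Agent.Lib.P243.Counter
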