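import Mathlib
import Vale.Agent.Lib.P243.Defs
import Vale.Agent.Lib.P243.Transfer

/-!
P243 counterexample to the directionwise (Bezdek-Khan) form, module M1: linear charts.

If `π : ℝ³ → ℝ²` is linear with kernel `ℝ u`, then areas in the plane `u^⊥` are a constant multiple
of planar Lebesgue measure read in the chart `π`; hence the relative base area of the cylinder
`π⁻¹ S` is `vol S / vol (π K)`.
-/

open MeasureTheory Measure Set Module
open scoped ENNReal

namespace Vale.Agent.Lib.P243.Counter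

open Vale.Agent.Lib.P243

/-- the base in the plane `u^⊥` of the cylinder `π⁻¹ S` -/
def base (u : E3) (π : E3 →L[ℝ] ℝ × ℝ) (S : Set (ℝ × ℝ)) : Set E3 := plane u ∩ π ⁻¹' S

lemma base_subset_plane (u : E3) (π : E3 →L[ℝ] ℝ × ℝ) (S : Set (ℝ × ℝ)) :
    base u π S ⊆ plane u := inter_subset_left

lemma sub_starProjection_eq {u : E3} (hu : ‖u‖ = 1) (y : E3) :
    y = (ℝ ∙ u)ᗮ.starProjection y + (inner ℝ u y) • u := by
  have h1 := Submodule.starProjection_add_starProjection_orthogonal (K := (ℝ ∙ u)) y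
  rw [Submodule.starProjection_unit_singleton ℝ hu] at h1
  rw [add_comm]
  exact h1.symm

lemma pi_starProjection {u : E3} (hu : ‖u‖ = 1) (π : E3 →L[ℝ] ℝ × ℝ) (hπu : π u = 0) (y : E3) :
    π ((ℝ ∙ u)ᗮ.starProjection y) = π y := by
  conv_rhs => rw [sub_starProjection_eq hu y]
  rw [map_add, map_smul, hπu, smul_zero, add_zero]

lemma preimage_subset_cylinder {u : E3} (hu : ‖u‖ = 1) (π : E3 →L[ℝ] ℝ × ℝ) (hπu : π u = 0)
    (S : Set (ℝ × ℝ)) : π ⁻¹' S ⊆ cylinder u (base u π S) := by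
  intro y hy
  refine ⟨(ℝ ∙ u)ᗮ.starProjection y, ⟨?_, ?_⟩, inner ℝ u y, sub_starProjection_eq hu y⟩
  · exact Submodule.starProjection_apply_mem _ _
  · show π _ ∈ S
    rw [pi_starProjection hu π hπu]
    exact hy

lemma finrank_perp {u : E3} (hu : ‖u‖ = 1) : finrank ℝ ((ℝ ∙ u)ᗮ : Submodule ℝ E3) = 2 := by
  have hu0 : u ≠ 0 := by
    intro h; rw [h, norm_zero] at hu; exact zero_ne_one hu
  have : Fact (finrank ℝ E3 = 2 + 1) := ⟨by simp⟩
  exact Submodule.finrank_orthogonal_span_singleton hu0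

/-- the chart restricted to the plane is a linear equivalence -/
lemma exists_equiv {u : E3} (hu : ‖u‖ = 1) (π : E3 →L[ℝ] ℝ × ℝ)
    (hker : ∀ z : E3, π z = 0 → inner ℝ u z = 0 → z = 0) :
    ∃ e : ((ℝ ∙ u)ᗮ : Submodule ℝ E3) ≃L[ℝ] ℝ × ℝ, ∀ z, e z = π (z : E3) := by
  have hfin := finrank_perp hu
  let ψ : ((ℝ ∙ u)ᗮ : Submodule ℝ E3) →ₗ[ℝ] ℝ × ℝ := π.toLinearMap ∘ₗ (ℝ ∙ u)ᗮ.subtype
  have hψ : ∀ z, ψ z = π (z : E3) := fun z => rfl
  have hinj : Function.Injective ψ := by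
    rw [injective_iff_map_eq_zero]
    intro z hz
    apply Subtype.ext
    exact hker z hz (Submodule.mem_orthogonal_singleton_iff_inner_right.1 z.2)
  exact ⟨(ψ.linearEquivOfInjective hinj (by simp [hfin])).toContinuousLinearEquiv, hψ⟩

lemma base_eq_image {u : E3} (π : E3 →L[ℝ] ℝ × ℝ)
    (e : ((ℝ ∙ u)ᗮ : Submodule ℝ E3) ≃L[ℝ] ℝ × ℝ) (he : ∀ z, e z = π (z : E3))
    (S : Set (ℝ × ℝ)) : base u π S = (fun a => (e.symm a : E3)) '' S := by
  have hπe : ∀ a, π (e.symm a : E3) = a := by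
    intro a
    rw [← he]; simp
  ext z
  constructor
  · rintro ⟨hz, hzS⟩
    refine ⟨π z, hzS, ?_⟩
    have : e.symm (π z) = ⟨z, hz⟩ := by
      rw [ContinuousLinearEquiv.symm_apply_eq, he]
    show ((e.symm (π z) : ((ℝ ∙ u)ᗮ : Submodule ℝ E3)) : E3) = z
    rw [this]
  · rintro ⟨a, ha, rfl⟩
    refine ⟨(e.symm a).2, ?_⟩
    show π _ ∈ S
    rw [hπe]; exact ha

/-- compact planar sets give compact bases -/
theorem isCompact_base {u : E3} (hu : ‖u‖ = 1) (π : E3 →L[ℝ] ℝ × ℝ)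
    (hker : ∀ z : E3, π z = 0 → inner ℝ u z = 0 → z = 0) {S : Set (ℝ × ℝ)} (hS : IsCompact S) :
    IsCompact (base u π S) := by
  obtain ⟨e, he⟩ := exists_equiv hu π hker
  rw [base_eq_image π e he S]
  exact hS.image (continuous_subtype_val.comp e.symm.continuous)

theorem chart {u : E3} (hu : ‖u‖ = 1) (π : E3 →L[ℝ] ℝ × ℝ) (hπu : π u = 0)
    (hker : ∀ z : E3, π z = 0 → inner ℝ u z = 0 → z = 0) :
    ∃ c : ℝ≥0∞, c ≠ 0 ∧ c ≠ ⊤ ∧
      (∀ S : Set (ℝ × ℝ), area (base u π S) = c * volume S) ∧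
      (∀ K : Set E3, area (shadow u K) = c * volume (π '' K)) := by
  have hfin := finrank_perp hu
  obtain ⟨e, he⟩ := exists_equiv hu π hker
  have hH2 : (volume : Measure (ℝ × ℝ)).IsAddHaarMeasure := by
    rw [Measure.volume_eq_prod]; infer_instance
  have hHaar : (μHE[2] : Measure ((ℝ ∙ u)ᗮ : Submodule ℝ E3)).IsAddHaarMeasure := by
    rw [← hfin]; infer_instance
  obtain ⟨c, hc0, hct, hs⟩ := exists_scale (volume : Measure (ℝ × ℝ))
    (μHE[2] : Measure ((ℝ ∙ u)ᗮ : Submodule ℝ E3)) e.symm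
  have hs' : ∀ T : Set (ℝ × ℝ),
      μHE[2] ((fun a => (e.symm a : E3)) '' T) = c * volume T := by
    intro T
    have hiso : Isometry (fun y : ((ℝ ∙ u)ᗮ : Submodule ℝ E3) => (y : E3)) :=
      (ℝ ∙ u)ᗮ.subtypeₗᵢ.isometry
    rw [← hs T, ← hiso.euclideanHausdorffMeasure_image (d := 2) (e.symm '' T), image_image]
  refine ⟨c, hc0, hct, ?_, ?_⟩
  · intro S
    rw [← hs' S, base_eq_image π e he S]
    rfl
  · intro K
    rw [← hs' (π '' K)]
    unfold area shadow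
    congr 1
    rw [image_image]
    apply image_congr
    intro y _
    have hmem : (ℝ ∙ u)ᗮ.starProjection y ∈ ((ℝ ∙ u)ᗮ : Submodule ℝ E3) :=
      Submodule.starProjection_apply_mem _ _
    have : e.symm (π y) = ⟨(ℝ ∙ u)ᗮ.starProjection y, hmem⟩ := by
      rw [ContinuousLinearEquiv.symm_apply_eq, he]
      exact (pi_starProjection hu π hπu y).symm
    rw [this]

/-- relative base area read in the chart -/
theorem relBase_chart {u : E3} (hu : ‖u‖ = 1) (π : E3 →L[ℝ] ℝ × ℝ) (hπu : π u = 0)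
    (hker : ∀ z : E3, π z = 0 → inner ℝ u z = 0 → z = 0) (K : Set E3) (S : Set (ℝ × ℝ)) :
    relBase K u (base u π S) = volume S / volume (π '' K) := by
  obtain ⟨c, hc0, hct, h1, h2⟩ := chart hu π hπu hker
  unfold relBase
  rw [h1, h2, ENNReal.mul_div_mul_left _ _ hc0 hct]

end Vale.Agent.Lib.P243.Counter
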