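import Mathlib
import Vale.Agent.Lib.P243.Transfer
import Vale.Agent.Lib.P243.Counter.Model
import Vale.Agent.Lib.P243.Counter.Chart

/-!
# Module O (oblique coordinates): relative base areas are computed in oblique coordinates

ROUTE.  Put `u = ‖w‖⁻¹ • w`, `V = (ℝ ∙ u)ᗮ` (finrank 2, see `cyl_bound` in `Transfer.lean` for the
pattern).  `f := (P a c) ∘ V.subtype` is injective (`hker` + `V ⊓ ℝ ∙ u = ⊥`), hence a continuous
linear equivalence `e : V ≃L[ℝ] ℝ × ℝ` (`LinearMap.linearEquivOfInjective`, finrank both 2).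
`exists_scale (μHE[2] on V) volume e` gives `k ≠ 0, ⊤` with `volume (e '' S') = k * μHE[2] S'`.
`baseOf a c u S = Subtype.val '' (e ⁻¹' S)`, `shadow u K = Subtype.val '' (proj '' K)` and
`e (proj x) = P a c x` because `x - proj x ∈ ℝ ∙ u` is killed by `P a c`.  `Subtype.val` is an
isometry (`Isometry.euclideanHausdorffMeasure_image`).  Finish with `ENNReal.mul_div_mul_left`
and monotonicity in the denominator.

(The work is done in `Chart.lean`; here it is transported to the frozen statements.)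
-/

open MeasureTheory Measure Set
open scoped ENNReal RealInnerProductSpace

namespace Vale.Agent.Lib.P243.Counter

open Vale.Agent.Lib.P243

lemma P_unit {a c w : E3} (ha : ⟪a, w⟫ = 0) (hc : ⟪c, w⟫ = 0) : P a c (‖w‖⁻¹ • w) = 0 := by
  rw [P_apply, inner_smul_right, inner_smul_right, ha, hc, mul_zero]
  rfl

lemma ker_unit {a c w : E3} (hw : w ≠ 0)
    (hker : ∀ x : E3, ⟪a, x⟫ = 0 → ⟪c, x⟫ = 0 → x ∈ (ℝ ∙ w : Submodule ℝ E3)) :
    ∀ z : E3, P a c z = 0 → inner ℝ (‖w‖⁻¹ • w) z = 0 → z = 0 := by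
  intro z hz hi
  rw [P_apply, Prod.mk_eq_zero] at hz
  obtain ⟨t, rfl⟩ := Submodule.mem_span_singleton.1 (hker z hz.1 hz.2)
  rw [inner_smul_left, inner_smul_right, real_inner_self_eq_norm_sq] at hi
  have hn : ‖w‖ ≠ 0 := norm_ne_zero_iff.2 hw
  have ht : t = 0 := by
    have h2 : ‖w‖⁻¹ * (t * ‖w‖ ^ 2) = t * ‖w‖ := by field_simp
    have h3 : t * ‖w‖ = 0 := by
      rw [← h2]
      simpa using hi
    rcases mul_eq_zero.1 h3 with h | h
    · exact h
    · exact absurd h hn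
  rw [ht, zero_smul]

lemma norm_unit {w : E3} (hw : w ≠ 0) : ‖‖w‖⁻¹ • w‖ = 1 := by
  rw [norm_smul, norm_inv, norm_norm, inv_mul_cancel₀ (norm_ne_zero_iff.2 hw)]

lemma baseOf_eq_base (a c u : E3) (S : Set (ℝ × ℝ)) : baseOf a c u S = base u (P a c) S := rfl

/-- The oblique cylinder `{x | P a c x ∈ S}` is the cylinder over `baseOf`. -/
theorem subset_cylinder_baseOf {a c w : E3} (hw : w ≠ 0) (ha : ⟪a, w⟫ = 0) (hc : ⟪c, w⟫ = 0)
    (S : Set (ℝ × ℝ)) :
    {x | P a c x ∈ S} ⊆ cylinder (‖w‖⁻¹ • w) (baseOf a c (‖w‖⁻¹ • w) S) := by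
  rw [baseOf_eq_base]
  exact preimage_subset_cylinder (norm_unit hw) (P a c) (P_unit ha hc) S

/-- The relative base area in oblique coordinates. -/
theorem relBase_baseOf_le {a c w : E3} (hw : w ≠ 0) (ha : ⟪a, w⟫ = 0) (hc : ⟪c, w⟫ = 0)
    (hker : ∀ x : E3, ⟪a, x⟫ = 0 → ⟪c, x⟫ = 0 → x ∈ (ℝ ∙ w : Submodule ℝ E3))
    (K : Set E3) (S D : Set (ℝ × ℝ)) (hD : D ⊆ P a c '' K) :
    relBase K (‖w‖⁻¹ • w) (baseOf a c (‖w‖⁻¹ • w) S) ≤ volume S / volume D := by
  rw [baseOf_eq_base, relBase_chart (norm_unit hw) (P a c) (P_unit ha hc)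
    (ker_unit hw hker) K S]
  exact ENNReal.div_le_div_left (measure_mono hD) _

/-- Compact planar sets give compact bases. -/
theorem isCompact_baseOf {a c w : E3} (hw : w ≠ 0) (ha : ⟪a, w⟫ = 0) (hc : ⟪c, w⟫ = 0)
    (hker : ∀ x : E3, ⟪a, x⟫ = 0 → ⟪c, x⟫ = 0 → x ∈ (ℝ ∙ w : Submodule ℝ E3))
    {S : Set (ℝ × ℝ)} (hS : IsCompact S) :
    IsCompact (baseOf a c (‖w‖⁻¹ • w) S) := by
  rw [baseOf_eq_base]
  exact isCompact_base (norm_unit hw) (P a c) (ker_unit hw hker) hS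

end Vale.Agent.Lib.P243.Counter
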