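import Mathlib
import Vale.Agent.Lib.P243.Counter.Model

/-!
# Module C: the four oblique cylinders over `Q` cover the tetrahedron

ROUTE.  Write `(x, v, w) = (p 0, p 1, p 2)`, `q = w - v/6`, `s = v + w/6`.  The four points are
`(x + v/6, q)`, `(x - v/6, -q)`, `(-x - w/6, s)`, `(-x + w/6, -s)`.  The conditions
`z.1 + z.2 ≤ 1` are `x + w ≤ 1`, `x - w ≤ 1`, `v - x ≤ 1`, `-v - x ≤ 1`.  If the third condition
fails both for the index chosen by the sign of `q` and for the index chosen by the sign of `s`,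
adding the two failures gives `| |q| - 1/2 | + | |s| - 1/2 | < ± (|q| - |s|)`, absurd.
In Lean: case split on the signs of `q`, `s`, `|q| - 1/2`, `|s| - 1/2`, then `linarith`.
Inner products: `simp [ca, cc, EuclideanSpace.inner_eq_star_dotProduct, ...]` or
`PiLp.inner_apply`, `Fin.sum_univ_three`.
-/

open Set
open scoped RealInnerProductSpace

namespace Vale.Agent.Lib.P243.Counter

open Vale.Agent.Lib.P243

/-- inner product with an explicit vector -/
theorem inner_vec (a b c : ℝ) (p : E3) : ⟪(!₂[a, b, c] : E3), p⟫ = a * p 0 + b * p 1 + c * p 2 := by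
  simp [PiLp.inner_apply, Fin.sum_univ_three]
  ring

/-- Coordinates of the four oblique projections. -/
theorem P_coords (p : E3) :
    P (ca 0) (cc 0) p = (p 0 + p 1 / 6, p 2 - p 1 / 6) ∧
    P (ca 1) (cc 1) p = (p 0 - p 1 / 6, p 1 / 6 - p 2) ∧
    P (ca 2) (cc 2) p = (-p 0 - p 2 / 6, p 1 + p 2 / 6) ∧
    P (ca 3) (cc 3) p = (-p 0 + p 2 / 6, -p 1 - p 2 / 6) := by
  refine ⟨?_, ?_, ?_, ?_⟩
  · simp only [P_apply, ca, cc, Matrix.cons_val_zero, inner_vec, Prod.mk.injEq]
    constructor <;> ring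
  · simp only [P_apply, ca, cc, Matrix.cons_val_one, Matrix.cons_val_zero, inner_vec, Prod.mk.injEq]
    constructor <;> ring
  · simp only [P_apply, ca, cc, Matrix.cons_val, inner_vec, Prod.mk.injEq]
    constructor <;> ring
  · simp only [P_apply, ca, cc, Matrix.cons_val, inner_vec, Prod.mk.injEq]
    constructor <;> ring

theorem cover (p : E3) (hp : p ∈ Tet) : ∃ i : Fin 4, P (ca i) (cc i) p ∈ Q := by
  obtain ⟨h0, h1, h2, h3⟩ := P_coords p
  obtain ⟨hv, hw⟩ := hp
  rw [abs_le] at hv hw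
  obtain ⟨hv1, hv2⟩ := hv
  obtain ⟨hw1, hw2⟩ := hw
  by_contra hcon
  have n0 : ¬ P (ca 0) (cc 0) p ∈ Q := fun h => hcon ⟨0, h⟩
  have n1 : ¬ P (ca 1) (cc 1) p ∈ Q := fun h => hcon ⟨1, h⟩
  have n2 : ¬ P (ca 2) (cc 2) p ∈ Q := fun h => hcon ⟨2, h⟩
  have n3 : ¬ P (ca 3) (cc 3) p ∈ Q := fun h => hcon ⟨3, h⟩
  rw [h0] at n0
  rw [h1] at n1
  rw [h2] at n2
  rw [h3] at n3
  simp only [Q, Set.mem_ofPred_eq, not_and, not_le] at n0 n1 n2 n3
  set x := p 0
  set v := p 1
  set w := p 2
  rcases le_or_gt 0 (w - v / 6) with hq | hq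
  · have A := n0 hq (by linarith)
    have a1 := le_abs_self (w - v / 6 - 1 / 2)
    have a2 := neg_abs_le (w - v / 6 - 1 / 2)
    rcases le_or_gt 0 (v + w / 6) with hs | hs
    · have B := n2 hs (by linarith)
      have b1 := le_abs_self (v + w / 6 - 1 / 2)
      have b2 := neg_abs_le (v + w / 6 - 1 / 2)
      linarith
    · have B := n3 (by linarith) (by linarith)
      have b1 := le_abs_self (-v - w / 6 - 1 / 2)
      have b2 := neg_abs_le (-v - w / 6 - 1 / 2)
      linarith
  · have A := n1 (by linarith) (by linarith)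
    have a1 := le_abs_self (v / 6 - w - 1 / 2)
    have a2 := neg_abs_le (v / 6 - w - 1 / 2)
    rcases le_or_gt 0 (v + w / 6) with hs | hs
    · have B := n2 hs (by linarith)
      have b1 := le_abs_self (v + w / 6 - 1 / 2)
      have b2 := neg_abs_le (v + w / 6 - 1 / 2)
      linarith
    · have B := n3 (by linarith) (by linarith)
      have b1 := le_abs_self (-v - w / 6 - 1 / 2)
      have b2 := neg_abs_le (-v - w / 6 - 1 / 2)
      linarith

end Vale.Agent.Lib.P243.Counter
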