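import Mathlib
import Vale.Agent.Lib.P243.Counter.Cover

/-!
# Module S: linear algebra of the four projections, and `Tri` lies in every oblique shadow

ROUTE.  `tri_subset`: for `z = (p, q) ∈ Tri` put `t = (1 + p) / 7`; preimages in `Tet` are
`i = 0`: `(p - t, 6 t, q + t)`; `i = 1`: `(p - t, -6 t, -q - t)`... (solve `P_coords`; by symmetry
`i = 1`: `(x, v, w) ↦ (x, -v, -w)`, `i = 2`: `(x, v, w) ↦ (-x, w', v')`), check with `abs_le` and
`linarith`.  `ker`: from the two linear equations express `x` as a multiple of `ax i`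
(`Submodule.mem_span_singleton`, coefficient `x 1 / 6` for `i = 0, 1`, `x 2 / 6` for `i = 2, 3`).
-/

open Set
open scoped RealInnerProductSpace

namespace Vale.Agent.Lib.P243.Counter

open Vale.Agent.Lib.P243

theorem ax_ne_zero (i : Fin 4) : ax i ≠ 0 := by
  intro h
  have h0 : (ax i) 0 = 0 := by rw [h]; rfl
  fin_cases i <;> simp [ax] at h0

theorem ca_ax (i : Fin 4) : ⟪ca i, ax i⟫ = 0 := by
  fin_cases i <;> simp [ca, ax, inner_vec]

theorem cc_ax (i : Fin 4) : ⟪cc i, ax i⟫ = 0 := by
  fin_cases i <;> simp [cc, ax, inner_vec]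

theorem ker (i : Fin 4) (x : E3) (h1 : ⟪ca i, x⟫ = 0) (h2 : ⟪cc i, x⟫ = 0) :
    x ∈ (ℝ ∙ ax i : Submodule ℝ E3) := by
  rw [Submodule.mem_span_singleton]
  fin_cases i
  · simp only [ca, cc, Fin.zero_eta, Matrix.cons_val_zero, inner_vec] at h1 h2
    refine ⟨x 1 / 6, ?_⟩
    ext j
    fin_cases j <;> simp [ax] <;> linarith
  · simp only [ca, cc, Fin.mk_one, Matrix.cons_val_one, Matrix.cons_val_zero, inner_vec] at h1 h2
    refine ⟨x 1 / 6, ?_⟩
    ext j
    fin_cases j <;> simp [ax] <;> linarith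
  · simp only [ca, cc, Fin.reduceFinMk, Matrix.cons_val, inner_vec] at h1 h2
    refine ⟨x 2 / 6, ?_⟩
    ext j
    fin_cases j <;> simp [ax] <;> linarith
  · simp only [ca, cc, Fin.reduceFinMk, Matrix.cons_val, inner_vec] at h1 h2
    refine ⟨x 2 / 6, ?_⟩
    ext j
    fin_cases j <;> simp [ax] <;> linarith

theorem tri_subset (i : Fin 4) : Tri ⊆ P (ca i) (cc i) '' Tet := by
  rintro ⟨p, q⟩ ⟨h1, h2, h3⟩
  simp only at h1 h2 h3
  fin_cases i
  · refine ⟨!₂[p - (1 + p) / 7, 6 * ((1 + p) / 7), q + (1 + p) / 7], ?_, ?_⟩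
    · constructor
      · simp only [abs_le]
        constructor <;> simp <;> linarith
      · simp only [abs_le]
        constructor <;> simp <;> linarith
    · rw [show ((⟨0, by norm_num⟩ : Fin 4)) = 0 from rfl, (P_coords _).1]
      simp
  · refine ⟨!₂[p - (1 + p) / 7, -(6 * ((1 + p) / 7)), -(q + (1 + p) / 7)], ?_, ?_⟩
    · constructor
      · simp only [abs_le]
        constructor <;> simp <;> linarith
      · simp only [abs_le]
        constructor <;> simp <;> linarith
    · rw [show ((⟨1, by norm_num⟩ : Fin 4)) = 1 from rfl, (P_coords _).2.1]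
      simp
      constructor <;> ring
  · refine ⟨!₂[-(p - (1 + p) / 7), q + (1 + p) / 7, -(6 * ((1 + p) / 7))], ?_, ?_⟩
    · constructor
      · simp only [abs_le]
        constructor <;> simp <;> linarith
      · simp only [abs_le]
        constructor <;> simp <;> linarith
    · rw [show ((⟨2, by norm_num⟩ : Fin 4)) = 2 from rfl, (P_coords _).2.2.1]
      simp
      constructor <;> ring
  · refine ⟨!₂[-(p - (1 + p) / 7), -(q + (1 + p) / 7), 6 * ((1 + p) / 7)], ?_, ?_⟩
    · constructor
      · simp only [abs_le]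
        constructor <;> simp <;> linarith
      · simp only [abs_le]
        constructor <;> simp <;> linarith
    · rw [show ((⟨3, by norm_num⟩ : Fin 4)) = 3 from rfl, (P_coords _).2.2.2]
      simp

end Vale.Agent.Lib.P243.Counter
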