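import Mathlib
import Vale.Agent.Lib.P243.ShadowArea
import Vale.Agent.Lib.P243.Counter.Oblique
import Vale.Agent.Lib.P243.Counter.AreaQ
import Vale.Agent.Lib.P243.Counter.AreaTri
import Vale.Agent.Lib.P243.Counter.Body
import Vale.Agent.Lib.P243.Counter.Shadow

open MeasureTheory Measure Set
open scoped ENNReal RealInnerProductSpace

namespace Vale.Agent.Lib.P243.Counter

open Vale.Agent.Lib.P243

theorem norm_uax (i : Fin 4) : ‖uax i‖ = 1 := by
  unfold uax
  rw [norm_smul, norm_inv, norm_norm]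
  exact inv_mul_cancel₀ (norm_ne_zero_iff.2 (ax_ne_zero i))

theorem isCover : IsCylinderCover Tet uax Bs := by
  refine ⟨norm_uax, fun i y hy => hy.1, fun p hp => ?_⟩
  obtain ⟨i, hi⟩ := cover p hp
  exact mem_iUnion.2 ⟨i, subset_cylinder_baseOf (ax_ne_zero i) (ca_ax i) (cc_ax i) Q hi⟩

theorem isCompact_Bs (i : Fin 4) : IsCompact (Bs i) :=
  isCompact_baseOf (ax_ne_zero i) (ca_ax i) (cc_ax i) (ker i) isCompact_Q

theorem relBase_le (i : Fin 4) : relBase Tet (uax i) (Bs i) ≤ ENNReal.ofReal (89 / 740) := by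
  have h := relBase_baseOf_le (ax_ne_zero i) (ca_ax i) (cc_ax i) (ker i) Tet Q Tri (tri_subset i)
  refine h.trans ?_
  calc volume Q / volume Tri ≤ ENNReal.ofReal (623 / 1110) / ENNReal.ofReal (14 / 3) :=
        ENNReal.div_le_div volume_Q_le le_volume_Tri
    _ = ENNReal.ofReal (89 / 740) := by
        rw [← ENNReal.ofReal_div_of_pos (by norm_num)]
        norm_num

theorem sum_relBase_le : ∑ i, relBase Tet (uax i) (Bs i) ≤ ENNReal.ofReal (89 / 185) := by
  calc ∑ i, relBase Tet (uax i) (Bs i) ≤ ∑ _i : Fin 4, ENNReal.ofReal (89 / 740) :=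
        Finset.sum_le_sum fun i _ => relBase_le i
    _ = ENNReal.ofReal (89 / 185) := by
        rw [Finset.sum_const, Finset.card_univ, Fintype.card_fin, nsmul_eq_mul,
          show ((4 : ℕ) : ℝ≥0∞) = ENNReal.ofReal 4 by simp, ← ENNReal.ofReal_mul (by norm_num)]
        norm_num

end Vale.Agent.Lib.P243.Counter
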